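import Vale.Agent.P002.Main

namespace Vale.Agent.Results.P002.CentralFree

open Vale.Agent.P002 Matrix

theorem result (k m : ℕ) (p : Fin m → ℕ) (c : Fin m → Fin k → ℤ) (T : Set (Fin k → ℤ))
    (r q : ℕ) (s : Fin q → Fin k → ℤ) (C : Fin q → SpecialLinearGroup (Fin r) ℂ)
    (hC : ∀ a, QuasiUnip (C a)) :
    ∃ L : IntermediateField ℚ ℂ, FiniteDimensional ℚ L ∧
      ∀ F : MvPolynomial ((Fin k ⊕ Fin m) × Fin r × Fin r) ℂ,
        (∀ ρ : PresentedGroup (rels p c T) →* SpecialLinearGroup (Fin r) ℂ, IntegralIn L ρ →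
          (∀ a, IsConj (C a) (ρ (PresentedGroup.mk _ (zw m (s a))))) →
          MvPolynomial.eval (fun y => (ρ (PresentedGroup.of y.1)).1 y.2.1 y.2.2) F = 0) →
        ∀ ρ : PresentedGroup (rels p c T) →* SpecialLinearGroup (Fin r) ℂ, Semisimple ρ →
          (∀ a, IsConj (C a) (ρ (PresentedGroup.mk _ (zw m (s a))))) →
          MvPolynomial.eval (fun y => (ρ (PresentedGroup.of y.1)).1 y.2.1 y.2.2) F = 0 := by
  obtain ⟨N, hN, hq⟩ := quasi C hC
  obtain ⟨T', hT'⟩ : ∃ T' : Set (Fin k → ℤ), T' = T ∪ Set.range fun a => N • s a := ⟨_, rfl⟩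
  choose Λ hΛ1 hΛ2 using fun col : Fin r → Fin r => eqs p c T' col
  choose e he htor using fun col : Fin r → Fin r => torus (Λ col)
  obtain ⟨L, hL, O, ε, hε, hroot, hO⟩ :=
    field (e := ∏ col, e col) (Finset.prod_pos fun col _ => he col)
  refine ⟨L, hL, fun F hF ρ hρ hconj => ?_⟩
  obtain ⟨col, t, G, ht0, hH, hG1, hG2, hρg⟩ := param ρ hρ
  have hz := zw_rho ρ hG1 hρg
  have hH' : H p c T' col t := by
    refine ⟨hH.1, hH.2.1, hH.2.2.1, ?_⟩
    intro τ hτ i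
    rw [hT'] at hτ
    rcases hτ with hτ | ⟨a, ha⟩
    · exact hH.2.2.2 τ hτ i
    · have h := hq a _ _ _ hG1 (hz (s a)) (hconj a) i
      rw [← h, ← Finset.prod_pow]
      refine Finset.prod_congr rfl fun l _ => ?_
      have h5 : τ l = s a l * (N : ℤ) := by
        rw [← ha]
        simp [mul_comm]
      rw [h5, _root_.zpow_mul, _root_.zpow_natCast]
  have hroot' : ∀ x : ℂ, x ^ e col = 1 → x ∈ O := by
    intro x hx
    apply hroot
    obtain ⟨n, hn⟩ := Finset.dvd_prod_of_mem e (Finset.mem_univ col)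
    rw [hn, pow_mul, hx, one_pow]
  have hcl := htor col O ε hε hroot' t ht0 ((hΛ1 col t ht0).1 hH')
  simp_rw [hρg]
  refine hcl _ (reg1 p G F) ?_
  rintro t' ⟨h1, h2, h3⟩
  have hH2 : H p c T' col t' := (hΛ1 col t' fun x => (h1 x).1).2 h2
  have hH3 : H p c T col t' :=
    ⟨hH2.1, hH2.2.1, hH2.2.2.1, fun τ hτ => hH2.2.2.2 τ (by rw [hT']; exact Or.inl hτ)⟩
  refine inner p col hε t' hG1 hG2 F fun G' g1 g2 g3 => ?_
  obtain ⟨ρ', hρ'⟩ := rep hH3 g1 g2
  have hz' := zw_rho ρ' g1 hρ'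
  have hint : IntegralIn L ρ' := by
    intro g i j
    refine hO _ (all_mem O ρ' (fun g i j => ?_) g i j)
    rw [hρ']
    exact mats_mem p O (fun a => (h1 a).2) g3 g i j
  have hcj : ∀ a, IsConj (C a) (ρ' (PresentedGroup.mk _ (zw m (s a)))) := by
    intro a
    refine (hconj a).trans (conj_of hG1 g1 (hz (s a)) ?_)
    have hd : (fun i => ∏ l, t (Sum.inl l, i) ^ s a l) =
        fun i => ∏ l, t' (Sum.inl l, i) ^ s a l := by
      funext i
      rw [← mono_ev, ← mono_ev]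
      refine (h3 _ N hN ?_).symm
      rw [← ev_smul]
      exact hΛ2 col _ (by rw [hT']; exact Or.inr ⟨a, rfl⟩) i
    rw [hd]
    exact hz' (s a)
  have h := hF ρ' hint hcj
  simp_rw [hρ'] at h
  exact h

end Vale.Agent.Results.P002.CentralFree
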