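import Vale.Agent.P002T.Main
import Vale.Agent.Results.P002.CentralFree

namespace Vale.Agent.Results.P002.Products

open Vale.Agent.P002 Matrix

theorem result :
    (∀ a b r : ℕ, ∃ L : IntermediateField ℚ ℂ, FiniteDimensional ℚ L ∧
      ∀ F : MvPolynomial ((Fin a ⊕ Fin b) × Fin r × Fin r) ℂ,
        (∀ ρ : FreeGroup (Fin a) × FreeGroup (Fin b) →* SpecialLinearGroup (Fin r) ℂ,
          IntegralIn L ρ → MvPolynomial.eval (fun y => (ρ (gen y.1)).1 y.2.1 y.2.2) F = 0) →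
        ∀ ρ : FreeGroup (Fin a) × FreeGroup (Fin b) →* SpecialLinearGroup (Fin r) ℂ,
          Semisimple ρ → MvPolynomial.eval (fun y => (ρ (gen y.1)).1 y.2.1 y.2.2) F = 0) ∧
    ∀ (k m : ℕ) (p : Fin m → ℕ) (c : Fin m → Fin k → ℤ) (T : Set (Fin k → ℤ))
      (r q : ℕ) (s : Fin q → Fin k → ℤ) (C : Fin q → SpecialLinearGroup (Fin r) ℂ),
      (∀ a, QuasiUnip (C a)) →
      ∃ L : IntermediateField ℚ ℂ, FiniteDimensional ℚ L ∧
        ∀ F : MvPolynomial ((Fin k ⊕ Fin m) × Fin r × Fin r) ℂ,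
          (∀ ρ : PresentedGroup (rels p c T) →* SpecialLinearGroup (Fin r) ℂ, IntegralIn L ρ →
            (∀ a, IsConj (C a) (ρ (PresentedGroup.mk _ (zw m (s a))))) →
            MvPolynomial.eval (fun y => (ρ (PresentedGroup.of y.1)).1 y.2.1 y.2.2) F = 0) →
          ∀ ρ : PresentedGroup (rels p c T) →* SpecialLinearGroup (Fin r) ℂ, Semisimple ρ →
            (∀ a, IsConj (C a) (ρ (PresentedGroup.mk _ (zw m (s a))))) →
            MvPolynomial.eval (fun y => (ρ (PresentedGroup.of y.1)).1 y.2.1 y.2.2) F = 0 :=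
  ⟨mainT, Vale.Agent.Results.P002.CentralFree.result⟩

end Vale.Agent.Results.P002.Products
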